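import Vale.Agent.Lib.P331.Main

/-!
# P331: single-sample matroid prophet inequality for bounded circumference
-/

namespace Vale.Agent.Results.P331.A_circumference

open Vale.Agent.Lib.P331 MeasureTheory
open scoped NNReal ENNReal

/-- If all circuits of the finite matroid `M` have at most `k + 1` elements, there is an online
rule with one sample per element, depending only on `M` and `k`, with a uniform finite seed, whose
accepted set is always independent and which is `1 / (4 k)`-competitive against the almighty
adversary: the order may be any function of the seed, the values and the samples (and of the laws,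
which are fixed first). -/
theorem result {E : Type} [Fintype E] [LinearOrder E] (M : Matroid E) (hE : M.E = Set.univ)
    (k : ℕ) (hk : 1 ≤ k) (hcirc : ∀ C, M.IsCircuit C → C.encard ≤ (k : ℕ∞) + 1) :
    ∃ r : OnlineRule E (Seed E k),
      (∀ S ω V order, M.Indep (accepted r S ω V order : Set E)) ∧
      (∀ ω order A, MeasurableSet
        {p : (E → ℝ≥0) × (E → ℝ≥0) | accepted r p.2 ω p.1 order = A}) ∧
      ∀ (D : E → Measure ℝ≥0) [∀ e, IsProbabilityMeasure (D e)]
        (adv : Seed E k → (E → ℝ≥0) → (E → ℝ≥0) → List E),
        (∀ ω V S, (adv ω V S).Nodup ∧ ∀ e, e ∈ adv ω V S) →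
        ∫⁻ v, OPT M v ∂(Measure.pi D) ≤
          (4 * k) * ((Fintype.card (Seed E k) : ℝ≥0∞)⁻¹ * ∑ ω : Seed E k,
            ∫⁻ p : (E → ℝ≥0) × (E → ℝ≥0),
              ∑ e ∈ accepted r p.2 ω p.1 (adv ω p.1 p.2), (p.1 e : ℝ≥0∞)
              ∂((Measure.pi D).prod (Measure.pi D))) :=
  ⟨ruleOf M, fun S ω V order => accepted_indep hE S V ω order,
    fun ω order A => accepted_measurable M ω order A,
    fun D _ adv hadv => main_bound hE hk hcirc D adv fun ω V S => (hadv ω V S).2⟩

end Vale.Agent.Results.P331.A_circumference
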