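import Vale.Agent.Lib.P331.Sym

namespace Vale.Agent.Results.P331.OneSampleGirth

open Finset MeasureTheory Vale.Agent.Lib.P331
open scoped ENNReal NNReal

/-- One-sample matroid prophet inequality against the almighty adversary, for an explicit threshold
rule with `numSeeds r g` seeds.  Here `r` bounds the rank of `M` and every set of fewer than `g`
elements is independent.  The outcome `ω e = (S e, V e)` has law `⨂ₑ (D e ⊗ D e)`; the arrival order
`π ω j` is any function of the outcome and the seed `j`, with no measurability assumed; the seed is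
uniform on `range (numSeeds r g)`.  The rule sees only `M`, `g`, `S`, the seed, and online the
arriving element with its value, and it keeps the accepted set independent.  For `g = r` (paving
matroids) or more generally `r ≤ g`, at most `5` seeds are used, hence the ratio is at least `1/160`;
for `g = 0` (all matroids) the number of seeds is `2 + ⌈log₂((r + 1) / 3 + 2)⌉`. -/
theorem result {n : ℕ} (M : Matroid (Fin n)) (r g : ℕ)
    (hr : ∀ I : Finset (Fin n), M.Indep (I : Set (Fin n)) → I.card ≤ r)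
    (hg : ∀ I : Finset (Fin n), I.card < g → M.Indep (I : Set (Fin n)))
    (D : Fin n → Measure ℝ≥0) [∀ e, IsProbabilityMeasure (D e)]
    (π : (Fin n → ℝ≥0 × ℝ≥0) → ℕ → List (Fin n))
    (hπ : ∀ ω j, (π ω j).Nodup ∧ ∀ e, e ∈ π ω j) :
    (r ≤ g → numSeeds r g ≤ 5) ∧
    (32 * (numSeeds r g : ℝ≥0∞))⁻¹ *
        ∫⁻ ω, opt M (valueOf ω) ∂(Measure.pi fun e => (D e).prod (D e)) ≤
      (numSeeds r g : ℝ≥0∞)⁻¹ * ∑ j ∈ range (numSeeds r g),
        ∫⁻ ω, ∑ e ∈ run M (fun e => eligible M g j (sampleOf ω) e (valueOf ω e)) (π ω j),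
          valueOf ω e ∂(Measure.pi fun e => (D e).prod (D e)) := by
  refine ⟨numSeeds_le_five, ?_⟩
  have hmain := main_inequality M r g hr hg D π (fun ω j => (hπ ω j).2)
  have hL0 : (numSeeds r g : ℝ≥0∞) ≠ 0 := by
    have : numSeeds r g ≠ 0 := by unfold numSeeds; omega
    exact_mod_cast this
  have hLt : (numSeeds r g : ℝ≥0∞) ≠ ⊤ := ENNReal.natCast_ne_top _
  set X := ∑ j ∈ range (numSeeds r g),
        ∫⁻ ω, ∑ e ∈ run M (fun e => eligible M g j (sampleOf ω) e (valueOf ω e)) (π ω j),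
          valueOf ω e ∂(Measure.pi fun e => (D e).prod (D e)) with hX
  have h32 : (32 : ℝ≥0∞) ≠ 0 := by norm_num
  have h32t : (32 : ℝ≥0∞) ≠ ⊤ := by norm_num
  calc (32 * (numSeeds r g : ℝ≥0∞))⁻¹ * ∫⁻ ω, opt M (valueOf ω) ∂(Measure.pi fun e => (D e).prod (D e))
      ≤ (32 * (numSeeds r g : ℝ≥0∞))⁻¹ * (32 * X) := by gcongr
    _ = (numSeeds r g : ℝ≥0∞)⁻¹ * X := by
        rw [ENNReal.mul_inv (Or.inl h32) (Or.inl h32t)]
        rw [mul_comm (32 : ℝ≥0∞)⁻¹, mul_assoc, ← mul_assoc (32 : ℝ≥0∞)⁻¹,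
          ENNReal.inv_mul_cancel h32 h32t, one_mul]

end Vale.Agent.Results.P331.OneSampleGirth
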